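import Vale.Agent.P025.R2.H109.Res

/-!
# P025 A-M2 (helper109), file 2: continuity of the action on the residue field at a fixed point
-/

open scoped TensorProduct Topology

namespace P025H109

open P025H544 P025H720

section Core

variable {B K : Type*} [NontriviallyNormedField B] [CompleteSpace B] [IsUltrametricDist B]
  [Field K] [Algebra B K] [Algebra.IsAlgebraic B K]

/-- a `p`-th root of unity close to `1` is `1` -/
theorem eq_one_of_near {p : ℕ} (hp : p ≠ 0) (z : K) (hz : z ^ p = 1)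
    (h : spectralNorm B K (z - 1) < ‖(p : B)‖) : z = 1 := by
  by_contra hne
  obtain ⟨n, hn, hna⟩ : ∃ n : MulAlgebraNorm B K, (∀ x, n x = spectralNorm B K x) ∧
      IsNonarchimedean n :=
    ⟨spectralMulAlgNorm B K, fun _ => rfl, isNonarchimedean_spectralNorm⟩
  have hz1 : n z = 1 := by
    have h1 : n z ^ p = 1 := by rw [← map_pow, hz, map_one]
    exact (pow_eq_one_iff_of_nonneg (apply_nonneg n z) hp).mp h1
  have hzi : ∀ i : ℕ, n (z ^ i) = 1 := fun i => by rw [map_pow, hz1, one_pow]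
  have hsum : ∀ s : Finset ℕ, n (∑ i ∈ s, z ^ i) ≤ 1 := by
    intro s
    induction s using Finset.cons_induction with
    | empty => simp
    | cons a s ha ih =>
      rw [Finset.sum_cons]
      exact (hna _ _).trans (max_le (hzi a).le ih)
  have hgeom : ∑ i ∈ Finset.range p, z ^ i = 0 := by
    have h1 := geom_sum_mul z p
    rw [hz, sub_self] at h1
    exact (mul_eq_zero.mp h1).resolve_right (sub_ne_zero.mpr hne)
  have hq : (p : K) = -((z - 1) * ∑ i ∈ Finset.range p, ∑ j ∈ Finset.range i, z ^ j) := by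
    have h1 : ∑ i ∈ Finset.range p, (z ^ i - 1) =
        (z - 1) * ∑ i ∈ Finset.range p, ∑ j ∈ Finset.range i, z ^ j := by
      rw [Finset.mul_sum]
      apply Finset.sum_congr rfl
      intro i _
      rw [mul_comm, geom_sum_mul]
    rw [← h1, Finset.sum_sub_distrib, hgeom]
    simp
  have hq2 : n (∑ i ∈ Finset.range p, ∑ j ∈ Finset.range i, z ^ j) ≤ 1 := by
    have : ∀ s : Finset ℕ, n (∑ i ∈ s, ∑ j ∈ Finset.range i, z ^ j) ≤ 1 := by
      intro s
      induction s using Finset.cons_induction with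
      | empty => simp
      | cons a s ha ih =>
        rw [Finset.sum_cons]
        exact (hna _ _).trans (max_le (hsum _) ih)
    exact this _
  have h1 : ‖(p : B)‖ = n (p : K) := by
    rw [hn, ← map_natCast (algebraMap B K), spectralNorm_extends]
  have h2 : n (p : K) ≤ n (z - 1) := by
    rw [hq, map_neg_eq_map, map_mul]
    exact mul_le_of_le_one_right (apply_nonneg n _) hq2
  rw [h1, ← hn] at h
  exact absurd h (not_lt.mpr h2)

theorem cont_core {p : ℕ} (hp : p ≠ 0) (hpB : (p : B) ≠ 0) {ι : Type*} [Fintype ι] (f : ι → B)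
    (θ : ι → K) (hx : ∑ i, algebraMap B K (f i) * θ i ≠ 0) :
    ∃ ε > 0, ∀ f' : ι → B, (∀ i, ‖f' i - f i‖ < ε) → ∀ z : K, z ^ p = 1 →
      ∑ i, algebraMap B K (f' i) * θ i = z * ∑ i, algebraMap B K (f i) * θ i → z = 1 := by
  obtain ⟨n, hn⟩ : ∃ n : MulAlgebraNorm B K, ∀ x, n x = spectralNorm B K x :=
    ⟨spectralMulAlgNorm B K, fun _ => rfl⟩
  set x := ∑ i, algebraMap B K (f i) * θ i with hxdef
  have hnx : 0 < n x := by
    rw [hn]
    exact spectralNorm_zero_lt hx (Algebra.IsAlgebraic.isAlgebraic x)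
  set M : ℝ := 1 + ∑ i, n (θ i) with hM
  have hM0 : 0 < M := by
    have : 0 ≤ ∑ i, n (θ i) := Finset.sum_nonneg fun i _ => apply_nonneg n _
    linarith
  have hpn : 0 < ‖(p : B)‖ := norm_pos_iff.mpr hpB
  refine ⟨‖(p : B)‖ * n x / M, by positivity, ?_⟩
  intro f' hf' z hz h
  apply eq_one_of_near (B := B) hp z hz
  have h1 : (z - 1) * x = ∑ i, algebraMap B K (f' i - f i) * θ i := by
    rw [sub_mul, ← h, one_mul, hxdef, ← Finset.sum_sub_distrib]
    apply Finset.sum_congr rfl
    intro i _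
    rw [map_sub, sub_mul]
  have h2 : n ((z - 1) * x) ≤ ∑ i, ‖f' i - f i‖ * n (θ i) := by
    rw [h1]
    have h0 : ∀ s : Finset ι, n (∑ i ∈ s, algebraMap B K (f' i - f i) * θ i) ≤
        ∑ i ∈ s, ‖f' i - f i‖ * n (θ i) := by
      intro s
      induction s using Finset.cons_induction with
      | empty => simp
      | cons a s ha ih =>
        rw [Finset.sum_cons, Finset.sum_cons]
        refine (map_add_le_add n _ _).trans (add_le_add (le_of_eq ?_) ih)
        rw [map_mul, hn (algebraMap B K _), spectralNorm_extends]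
    exact h0 _
  have h3 : ∑ i, ‖f' i - f i‖ * n (θ i) ≤ ‖(p : B)‖ * n x / M * ∑ i, n (θ i) := by
    rw [Finset.mul_sum]
    exact Finset.sum_le_sum fun i _ => mul_le_mul_of_nonneg_right (hf' i).le (apply_nonneg n _)
  have h4 : ‖(p : B)‖ * n x / M * ∑ i, n (θ i) < ‖(p : B)‖ * n x := by
    have h5 : ∑ i, n (θ i) < M := by rw [hM]; linarith
    calc ‖(p : B)‖ * n x / M * ∑ i, n (θ i) < ‖(p : B)‖ * n x / M * M :=
          mul_lt_mul_of_pos_left h5 (by positivity)
      _ = ‖(p : B)‖ * n x := by field_simp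
  have h6 : n (z - 1) * n x < ‖(p : B)‖ * n x := by
    rw [← map_mul]
    exact (h2.trans h3).trans_lt h4
  rw [← hn]
  exact lt_of_mul_lt_mul_right h6 hnx.le

end Core

section Alg

variable {F B N : Type*} [Field F] [Field B] [Field N] [Algebra F B] [Algebra F N]
  [Algebra.IsAlgebraic F N]

theorem isIntegral_res (w : Pt F B N) (x : Res F B N w) : IsIntegral B x := by
  obtain ⟨y, rfl⟩ := Ideal.Quotient.mk_surjective x
  have h : IsIntegral B y := Algebra.IsIntegral.isIntegral y
  exact h.map (Ideal.Quotient.mkₐ B w.asIdeal)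

theorem isAlgebraic_res (w : Pt F B N) :
    @Algebra.IsAlgebraic B (Res F B N w) _ (fieldRes w).toRing _ := by
  let _ : Field (Res F B N w) := fieldRes w
  exact ⟨fun x => IsIntegral.isAlgebraic (isIntegral_res w x)⟩

end Alg

section Fixed

variable {G : Type*} [Group G] [TopologicalSpace G] [IsTopologicalGroup G]
variable {F A B N : Type*} [Field F] [Field A] [NontriviallyNormedField B] [CompleteSpace B]
  [IsUltrametricDist B] [Field N] [Algebra F A] [Algebra F B] [Algebra A B] [IsScalarTower F A B]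
  [Algebra F N] [Algebra.IsAlgebraic F N]
  [MulSemiringAction G F] [MulSemiringAction G A] [MulSemiringAction G B] [MulSemiringAction G N]
  [Equi G F A] [Equi G A B] [Equi G F N]

/-- the action on the residue field at a fixed point is continuous enough -/
theorem cont_fixed {p : ℕ} (hp : p ≠ 0) (hpB : (p : B) ≠ 0)
    (hcont : ∀ b : B, Continuous (fun g : G => g • b))
    (hspan : Submodule.span F {θ : N | IsOpen (MulAction.stabilizer G θ : Set G)} = ⊤)
    (hG : ∀ U ∈ 𝓝 (1 : G), ∃ V : Subgroup G, IsOpen (V : Set G) ∧ (V : Set G) ⊆ U)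
    (v : Pt F A N) (hv : ∀ g : G, g • v = v) (x : Res F A N v) (hx : x ≠ 0) :
    ∃ U : Subgroup G, IsOpen (U : Set G) ∧ ∀ g ∈ U, ∀ z : Res F A N v, z ^ p = 1 →
      resAct v hv g x = z * x → z = 1 := by
  classical
  obtain ⟨w, hw⟩ := exists_edge (B := B) v
  let φ : Res F A N v →+* Res F B N w := resEdge F A B N w v hw
  let _ : Field (Res F A N v) := fieldRes v
  let _ : Field (Res F B N w) := fieldRes w
  have hφ : Function.Injective φ := φ.injective
  have hφmk : ∀ y : A ⊗[F] N, φ (Ideal.Quotient.mk _ y) = Ideal.Quotient.mk _ (bc F A B N y) :=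
    fun y => rfl
  have halg : Algebra.IsAlgebraic B (Res F B N w) := isAlgebraic_res w
  obtain ⟨y, rfl⟩ := Ideal.Quotient.mk_surjective x
  obtain ⟨ι, hι, f, θ, hθ, hrep⟩ := exists_rep (G := G) hspan y
  have hterm : ∀ (b : B) (t : N), (Ideal.Quotient.mk w.asIdeal (b ⊗ₜ[F] t) : Res F B N w) =
      algebraMap B (Res F B N w) b * Ideal.Quotient.mk w.asIdeal ((1 : B) ⊗ₜ[F] t) := by
    intro b t
    have h1 : algebraMap B (Res F B N w) b = Ideal.Quotient.mk w.asIdeal (b ⊗ₜ[F] (1 : N)) := rfl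
    rw [h1, ← map_mul, Algebra.TensorProduct.tmul_mul_tmul, mul_one, one_mul]
  have hφx : ∀ f' : ι → A, φ (Ideal.Quotient.mk _ (∑ i, f' i ⊗ₜ[F] θ i)) =
      ∑ i, algebraMap B (Res F B N w) (algebraMap A B (f' i)) *
        Ideal.Quotient.mk w.asIdeal ((1 : B) ⊗ₜ[F] θ i) := by
    intro f'
    rw [hφmk, map_sum, map_sum]
    apply Finset.sum_congr rfl
    intro i _
    rw [bc_tmul, hterm]
  have hx' : ∑ i, algebraMap B (Res F B N w) (algebraMap A B (f i)) *
        Ideal.Quotient.mk w.asIdeal ((1 : B) ⊗ₜ[F] θ i) ≠ 0 := by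
    rw [← hφx, ← hrep]
    exact (map_ne_zero_iff φ hφ).mpr hx
  obtain ⟨ε, hε, hcore⟩ := cont_core hp hpB (fun i => algebraMap A B (f i)) _ hx'
  -- the neighbourhood
  have hU : ∀ᶠ g in 𝓝 (1 : G), ∀ i, g • θ i = θ i ∧ ‖g • algebraMap A B (f i) -
      algebraMap A B (f i)‖ < ε := by
    rw [Filter.eventually_all]
    intro i
    have h1 : ∀ᶠ g in 𝓝 (1 : G), g • θ i = θ i :=
      (hθ i).mem_nhds (Subgroup.one_mem _)
    have h2 : ∀ᶠ g in 𝓝 (1 : G), ‖g • algebraMap A B (f i) - algebraMap A B (f i)‖ < ε := by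
      have h3 : Continuous (fun g : G => ‖g • algebraMap A B (f i) - algebraMap A B (f i)‖) :=
        ((hcont _).sub continuous_const).norm
      have h4 : (fun g : G => ‖g • algebraMap A B (f i) - algebraMap A B (f i)‖) 1 < ε := by
        simpa using hε
      exact h3.continuousAt.eventually_lt continuousAt_const h4
    exact h1.and h2
  obtain ⟨V, hV, hVU⟩ := hG _ hU
  refine ⟨V, hV, ?_⟩
  intro g hg z hz hgx
  have hg' := hVU hg
  apply hφ
  rw [map_one]
  apply hcore (fun i => g • algebraMap A B (f i)) (fun i => (hg' i).2)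
  · rw [← map_pow, hz, map_one]
  · rw [← hφx, ← hrep, ← map_mul, ← hgx, resAct_mk, hrep, Finset.smul_sum]
    have h1 : ∑ i, g • (f i ⊗ₜ[F] θ i) = ∑ i, (g • f i) ⊗ₜ[F] θ i := by
      apply Finset.sum_congr rfl
      intro i _
      rw [smul_tmul_semi, (hg' i).1]
    rw [h1, hφx]
    apply Finset.sum_congr rfl
    intro i _
    rw [Equi.smul_algebraMap]

end Fixed

end P025H109
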