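import Vale.Agent.P025.R2.H507.LocDef

/-!
# P025, G-LA-b (helper109): the map of curves (proof of `H507/CurveSpec.lean`)
-/

set_option linter.unusedSectionVars false

open Polynomial P025H373

universe u

namespace P025H507

section algebra

/-- `T = γ s^e' y` satisfies `T ^ p = Phi(x)`, `x = y ^ p / Y0 - 1`. -/
theorem curve_T' {C : Type u} [Field C] {M : Type*} [Field M] (ι : C →+* M) {p h e' : ℕ} {s y : M}
    {b κ Y0 γ : C} (hb : b ≠ 0) (hY0 : Y0 ≠ 0) (hY : Y0 ^ h * (κ - 1) = κ)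
    (hγ : γ ^ p * Y0 ^ (h + 1) = κ * b) (hy : y ^ (p * h) = 1 + ι b * s ^ (p * e')) :
    (ι γ * s ^ e' * y) ^ p = (Phi κ h).eval₂ ι (y ^ p * ι Y0⁻¹ - 1) := by
  have e1 : (Phi κ h).eval₂ ι (y ^ p * ι Y0⁻¹ - 1) =
      (1 - ι κ) * (y ^ p * ι Y0⁻¹) + ι κ * (y ^ p * ι Y0⁻¹) ^ (h + 1) := by
    rw [Phi, eval₂_add, eval₂_mul, eval₂_mul, eval₂_pow, eval₂_add, eval₂_C, eval₂_C, eval₂_X,
      eval₂_one, sub_add_cancel, map_sub, map_one]
  rw [e1]
  have hy0 : ι Y0 ≠ 0 := (_root_.map_ne_zero ι).mpr hY0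
  have hb0 : ι b ≠ 0 := (_root_.map_ne_zero ι).mpr hb
  have hY' : ι Y0 ^ h * (ι κ - 1) = ι κ := by
    have := congrArg ι hY
    simpa using this
  have hγ' : ι γ ^ p * ι Y0 ^ (h + 1) = ι κ * ι b := by
    have := congrArg ι hγ
    simpa using this
  have hy' : (y ^ p) ^ h = 1 + ι b * (s ^ e') ^ p := by
    rw [← pow_mul, hy, ← pow_mul, mul_comm e' p]
  rw [map_inv₀]
  generalize ι Y0 = y0 at *
  generalize ι b = bb at *
  generalize ι κ = k at *
  generalize ι γ = g at *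
  rw [mul_pow, mul_pow]
  generalize (s ^ e') ^ p = S at *
  generalize y ^ p = Y at *
  have h1 : y0 ^ (h + 1) * (Y * y0⁻¹) = y0 ^ h * Y := by
    rw [pow_succ]
    field_simp
  have h2 : y0 ^ (h + 1) * (Y * y0⁻¹) ^ (h + 1) = Y * (1 + bb * S) := by
    rw [← mul_pow, mul_comm y0, mul_assoc, inv_mul_cancel₀ hy0, mul_one, pow_succ, hy']
    ring
  apply mul_left_cancel₀ (mul_ne_zero hb0 (pow_ne_zero (h + 1) hy0))
  linear_combination (bb * S * Y) * hγ' - bb * (1 - k) * h1 - bb * k * h2 + bb * Y * hY'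

end algebra

variable {C : Type u} [NontriviallyNormedField C] [IsUltrametricDist C] [CompleteSpace C]
  [IsAlgClosed C]

/-- `T = γ s^e' y` satisfies `T ^ p = Phi(x)`, `x = y ^ p / Y0 - 1`. -/
theorem curve_T {M : Type*} [Field M] (ι : C →+* M) {p h e' : ℕ} {s y : M} {b κ Y0 γ : C}
    (hb : b ≠ 0) (hY0 : Y0 ≠ 0) (hY : Y0 ^ h * (κ - 1) = κ)
    (hγ : γ ^ p * Y0 ^ (h + 1) = κ * b) (hy : y ^ (p * h) = 1 + ι b * s ^ (p * e')) :
    (ι γ * s ^ e' * y) ^ p = (Phi κ h).eval₂ ι (y ^ p * ι Y0⁻¹ - 1) :=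
  curve_T' ι hb hY0 hY hγ hy

/-- a non constant element of a field over `C` defines an embedding of `C(t)`. -/
theorem exists_i {M : Type*} [Field M] (ι : C →+* M) {w : M} (hw : ∀ c, w ≠ ι c) :
    ∃ i : RatFunc C →+* M, (∀ c, cc i c = ι c) ∧ i RatFunc.X = w := by
  let _ : Algebra C M := ι.toAlgebra
  have htr : Transcendental C w := by
    intro halg
    have hint : IsIntegral C w := halg.isIntegral
    obtain ⟨c, hc⟩ := hint.mem_range_algebraMap_of_minpoly_splits (K := C) (by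
      exact IsAlgClosed.splits _)
    exact hw c hc.symm
  have hinj : ∀ P : C[X], P ≠ 0 → aeval w P ≠ 0 := fun P hP h0 =>
    hP ((transcendental_iff.mp htr) P h0)
  let i : RatFunc C →+* M := RatFunc.liftRingHom (Polynomial.aeval (R := C) w).toRingHom (by
    intro P hP
    rw [Submonoid.mem_comap, mem_nonZeroDivisors_iff_ne_zero]
    exact hinj P (nonZeroDivisors.ne_zero hP))
  have hi : ∀ P : C[X], i (algebraMap C[X] (RatFunc C) P) = aeval w P := fun P =>
    RatFunc.liftRingHom_algebraMap _ _ _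
  refine ⟨i, fun c => ?_, ?_⟩
  · show i (RatFunc.C c) = ι c
    rw [← RatFunc.algebraMap_C, hi, aeval_C]
    rfl
  · rw [← RatFunc.algebraMap_X, hi, aeval_X]

/-- Kummer theory: `M = L(s)`, `s ^ e ∈ L`, all `e`-th roots of unity in `L`: `[M : L] ∣ e`. -/
theorem finrank_dvd {L M : Type*} [Field L] [Field M] [Algebra L M] {s : M}
    (hs : IntermediateField.adjoin L {s} = ⊤) {e : ℕ} (he : e ≠ 0) {u : L} (hu0 : u ≠ 0)
    (hu : s ^ e = algebraMap L M u) (hμ : ∀ ω : M, ω ^ e = 1 → ∃ w : L, algebraMap L M w = ω) :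
    FiniteDimensional L M ∧ Module.finrank L M ∣ e := by
  have hint : IsIntegral L s := by
    refine ⟨X ^ e - Polynomial.C u, monic_X_pow_sub_C u he, ?_⟩
    rw [eval₂_sub, eval₂_X_pow, eval₂_C, hu, sub_self]
  have hs0 : s ≠ 0 := by
    rintro rfl
    rw [zero_pow he] at hu
    exact hu0 ((map_eq_zero (algebraMap L M)).mp hu.symm)
  have hfd : FiniteDimensional L M := by
    have h1 := IntermediateField.adjoin.finiteDimensional hint
    rw [hs] at h1
    exact Module.Finite.equiv (IntermediateField.topEquiv (F := L) (E := M)).toLinearEquiv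
  refine ⟨hfd, ?_⟩
  set d := Module.finrank L M with hd
  have hdm : d = (minpoly L s).natDegree := by
    rw [hd, ← IntermediateField.finrank_top', ← hs, IntermediateField.adjoin.finrank hint]
  have hd0 : 0 < d := Module.finrank_pos
  -- `s ^ d ∈ L`
  have hsd : ∃ c : L, algebraMap L M c = s ^ d := by
    have h1 : algebraMap L M (Algebra.norm L s) ^ e = (s ^ d) ^ e := by
      rw [← map_pow, ← map_pow, hu, Algebra.norm_algebraMap, ← pow_mul, mul_comm d e, pow_mul, hu,
        map_pow]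
    have hn0 : algebraMap L M (Algebra.norm L s) ≠ 0 := by
      intro h0
      rw [h0, zero_pow he] at h1
      exact pow_ne_zero e (pow_ne_zero d hs0) h1.symm
    obtain ⟨w, hw⟩ := hμ (s ^ d / algebraMap L M (Algebra.norm L s)) (by
      rw [div_pow, ← h1, div_self (pow_ne_zero e hn0)])
    refine ⟨w * Algebra.norm L s, ?_⟩
    rw [map_mul, hw, div_mul_cancel₀ _ hn0]
  obtain ⟨c, hc⟩ := hsd
  -- `s ^ g ∈ L`
  have hsg : s ^ (Nat.gcd d e) ∈ (⊥ : IntermediateField L M) := by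
    have h1 : s ^ d ∈ (⊥ : IntermediateField L M) := ⟨c, hc⟩
    have h2 : s ^ e ∈ (⊥ : IntermediateField L M) := ⟨u, hu.symm⟩
    have h3 : s ^ (Nat.gcd d e) = (s ^ d) ^ (Nat.gcdA d e) * (s ^ e) ^ (Nat.gcdB d e) := by
      rw [← zpow_natCast s (Nat.gcd d e), Nat.gcd_eq_gcd_ab, zpow_add₀ hs0, zpow_mul, zpow_mul,
        zpow_natCast, zpow_natCast]
    rw [h3]
    exact mul_mem (zpow_mem h1 _) (zpow_mem h2 _)
  obtain ⟨c', hc'⟩ := hsg
  have hg0 : 0 < Nat.gcd d e := Nat.gcd_pos_of_pos_left _ hd0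
  have hle : (minpoly L s).natDegree ≤ Nat.gcd d e := by
    have h0 : minpoly L s ∣ X ^ (Nat.gcd d e) - Polynomial.C c' := by
      apply minpoly.dvd
      rw [aeval_sub, aeval_X_pow, aeval_C]
      exact sub_eq_zero.mpr hc'.symm
    have h1 := natDegree_le_of_dvd h0 (monic_X_pow_sub_C c' hg0.ne').ne_zero
    rwa [natDegree_X_pow_sub_C] at h1
  rw [← hdm] at hle
  have heq : Nat.gcd d e = d := le_antisymm (Nat.le_of_dvd hd0 (Nat.gcd_dvd_left d e)) hle
  rw [← heq]
  exact Nat.gcd_dvd_right d e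

/-- on the boundary `‖x‖ > ‖ρ‖`. -/
theorem norm_x_gt {E : Type*} [NormedField E] [IsUltrametricDist E] (ι : C →+* E)
    (hι : ∀ c : C, ‖ι c‖ = ‖c‖) {p h l : ℕ} (hh : h ≠ 0) (hhC : ‖(h : C)‖ < 1) (D : Core C p h l)
    {Y0 : C} (hY : Y0 ^ h * (D.κ - 1) = D.κ) {Y : E} (hy : ‖(h : C)‖ < ‖Y ^ h - 1‖) :
    ‖D.ρ‖ < ‖Y * ι Y0⁻¹ - 1‖ := by
  by_contra hcon
  rw [not_lt] at hcon
  have hκh : ‖D.κ‖ * ‖(h : C)‖ = 1 := by rw [← norm_mul]; exact D.hκ
  have hκ0 : D.κ ≠ 0 := by
    intro h0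
    rw [h0, norm_zero, zero_mul] at hκh
    exact zero_ne_one hκh
  have hhn : 0 < ‖(h : C)‖ := by
    rcases (norm_nonneg (h : C)).lt_or_eq with h1 | h1
    · exact h1
    · rw [← h1, mul_zero] at hκh
      exact absurd hκh zero_ne_one
  have hκ1 : 1 < ‖D.κ‖ := by
    by_contra h1
    rw [not_lt] at h1
    have : ‖D.κ‖ * ‖(h : C)‖ < 1 := by
      calc ‖D.κ‖ * ‖(h : C)‖ ≤ 1 * ‖(h : C)‖ := by gcongr
        _ < 1 := by rw [one_mul]; exact hhC
    linarith
  have hY0 : Y0 ≠ 0 := by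
    rintro rfl
    rw [zero_pow hh, zero_mul] at hY
    exact hκ0 hY.symm
  have hκκ : ‖D.κ - 1‖ = ‖D.κ‖ := by
    rw [sub_eq_add_neg]
    have := IsUltrametricDist.norm_add_eq_max_of_norm_ne_norm (x := D.κ) (y := -1) (by
      rw [norm_neg, norm_one]; exact hκ1.ne')
    rw [this, norm_neg, norm_one, max_eq_left hκ1.le]
  have hκ10 : D.κ - 1 ≠ 0 := by
    rw [← norm_pos_iff, hκκ]
    linarith
  set x : E := Y * ι Y0⁻¹ - 1 with hx
  have hιY0 : ι Y0 ≠ 0 := (_root_.map_ne_zero ι).mpr hY0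
  have hYx : Y = ι Y0 * (1 + x) := by
    rw [hx, map_inv₀]
    field_simp
    ring
  -- the estimate
  have hsum : ‖ι D.κ * ((1 + x) ^ h - 1)‖ < 1 := by
    have h1 : (1 + x) ^ h - 1 = ∑ i ∈ Finset.range h, x ^ (i + 1) * (h.choose (i + 1) : E) := by
      rw [add_comm, add_pow, Finset.sum_range_succ']
      simp
    rw [h1, Finset.mul_sum]
    have h2 : ∀ i ∈ Finset.range h, ‖ι D.κ * (x ^ (i + 1) * (h.choose (i + 1) : E))‖ < 1 := by
      intro i _
      have h3 := D.hch (i + 1) (by omega)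
      have h4 : ι D.κ * (x ^ (i + 1) * (h.choose (i + 1) : E)) =
          ι (D.κ * (h.choose (i + 1) : C)) * x ^ (i + 1) := by
        rw [map_mul, map_natCast]
        ring
      rw [h4, norm_mul, hι, norm_pow]
      refine lt_of_le_of_lt ?_ h3
      gcongr
    have h5 : ∀ s : Finset ℕ, s ⊆ Finset.range h →
        ‖∑ i ∈ s, ι D.κ * (x ^ (i + 1) * (h.choose (i + 1) : E))‖ < 1 := by
      intro s
      induction s using Finset.cons_induction with
      | empty => intro _; simp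
      | cons a s ha ih =>
        intro hs
        rw [Finset.sum_cons]
        refine (IsUltrametricDist.norm_add_le_max _ _).trans_lt (max_lt (h2 a ?_) (ih ?_))
        · exact hs (Finset.mem_cons_self a s)
        · exact fun y hy => hs (Finset.mem_cons_of_mem hy)
    exact h5 _ subset_rfl
  have h6 : ‖1 + ι D.κ * ((1 + x) ^ h - 1)‖ = 1 := by
    have := IsUltrametricDist.norm_add_eq_max_of_norm_ne_norm (x := (1 : E))
      (y := ι D.κ * ((1 + x) ^ h - 1)) (by rw [norm_one]; exact hsum.ne')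
    rw [this, norm_one, max_eq_left hsum.le]
  have h7 : ι (D.κ - 1) * (Y ^ h - 1) = 1 + ι D.κ * ((1 + x) ^ h - 1) := by
    have h8 : ι Y0 ^ h * (ι D.κ - 1) = ι D.κ := by
      have := congrArg ι hY
      simpa using this
    rw [hYx, mul_pow, map_sub, map_one]
    linear_combination (1 + x) ^ h * h8
  have h9 : ‖D.κ‖ * ‖Y ^ h - 1‖ = 1 := by
    rw [← hκκ, ← hι, ← norm_mul, h7, h6]
  have h10 : ‖Y ^ h - 1‖ = ‖(h : C)‖ := by
    have h11 : ‖D.κ‖ ≠ 0 := by linarith
    exact mul_left_cancel₀ h11 (h9.trans hκh.symm)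
  rw [h10] at hy
  exact lt_irrefl _ hy

/-- `X ^ q - (1 + b t^(-e))` is irreducible over `C(t)` (`1 + b t^(-e)` has a simple zero):
Eisenstein. -/
theorem irred {p m e : ℕ} [CharZero C] (hp : p.Prime) (he : e ≠ 0) {b : C} (hb : b ≠ 0) :
    Irreducible (X ^ (p ^ m) - Polynomial.C (1 + RatFunc.C b * (RatFunc.X)⁻¹ ^ e) :
      (RatFunc C)[X]) := by
  obtain ⟨t0, ht0⟩ := IsAlgClosed.exists_pow_nat_eq (-b) (Nat.pos_of_ne_zero he)
  have ht00 : t0 ≠ 0 := by
    rintro rfl
    rw [zero_pow he] at ht0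
    exact hb (by rw [eq_comm, neg_eq_zero] at ht0; exact ht0)
  set q := p ^ m with hq
  have hq0 : q ≠ 0 := pow_ne_zero m hp.ne_zero
  set A : C[X] := X ^ e with hA
  set B : C[X] := X ^ e + Polynomial.C b with hB
  set f : C[X][X] := Polynomial.C A * X ^ q - Polynomial.C B with hf
  have hA0 : A ≠ 0 := pow_ne_zero e X_ne_zero
  have hfc : ∀ n, f.coeff n = (if n = q then A else 0) - (if n = 0 then B else 0) := by
    intro n
    rw [hf, coeff_sub, coeff_C_mul, coeff_X_pow, coeff_C]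
    split_ifs <;> simp
  have hdeg : f.natDegree = q := by
    rw [hf, natDegree_sub_C, natDegree_C_mul_X_pow _ _ hA0]
  have hlead : f.leadingCoeff = A := by
    rw [leadingCoeff, hdeg, hfc, if_pos rfl, if_neg hq0, sub_zero]
  have hprim : f.IsPrimitive := by
    intro r hr
    rw [C_dvd_iff_dvd_coeff] at hr
    have h1 : r ∣ A := by
      have := hr q
      rwa [hfc, if_pos rfl, if_neg hq0, sub_zero] at this
    have h2 : r ∣ B := by
      have := hr 0
      rw [hfc, if_neg (Ne.symm hq0), if_pos rfl, zero_sub, dvd_neg] at this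
      exact this
    have h3 : r ∣ Polynomial.C b := by
      have := dvd_sub h2 h1
      rwa [hB, hA, add_sub_cancel_left] at this
    exact isUnit_of_dvd_unit h3 (isUnit_C.mpr (isUnit_iff_ne_zero.mpr hb))
  have hPprime : (Ideal.span {X - Polynomial.C t0} : Ideal C[X]).IsPrime :=
    (Ideal.span_singleton_prime (X_sub_C_ne_zero t0)).mpr (prime_X_sub_C t0)
  have hmem : ∀ g : C[X], g ∈ (Ideal.span {X - Polynomial.C t0} : Ideal C[X]) ↔ g.eval t0 = 0 := by
    intro g
    rw [Ideal.mem_span_singleton, dvd_iff_isRoot]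
    rfl
  have hBroot : B.eval t0 = 0 := by
    rw [hB, eval_add, eval_pow, eval_X, eval_C, ht0, neg_add_cancel]
  have hirr : Irreducible f := by
    refine irreducible_of_eisenstein_criterion hPprime ?_ ?_ ?_ ?_ hprim
    · rw [hlead, hmem, hA, eval_pow, eval_X]
      exact pow_ne_zero e ht00
    · intro n hn
      rw [degree_eq_natDegree (by rintro h0; rw [h0, natDegree_zero] at hdeg; exact hq0 hdeg.symm),
        hdeg, Nat.cast_lt] at hn
      rw [hfc, if_neg hn.ne, zero_sub, Ideal.neg_mem_iff]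
      split_ifs
      · rw [hmem]; exact hBroot
      · exact Ideal.zero_mem _
    · rw [← natDegree_pos_iff_degree_pos, hdeg]
      exact Nat.pos_of_ne_zero hq0
    · rw [hfc, if_neg (Ne.symm hq0), if_pos rfl, zero_sub, Ideal.neg_mem_iff,
        Ideal.span_singleton_pow, Ideal.mem_span_singleton]
      rintro ⟨g, hg⟩
      have h1 := congrArg (fun P => (derivative P).eval t0) hg
      simp only [derivative_mul, derivative_pow, derivative_sub, derivative_X, derivative_C,
        eval_add, eval_mul, eval_pow, eval_sub, eval_X, eval_C, sub_self] at h1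
      rw [hB, derivative_add, derivative_X_pow, derivative_C, add_zero, eval_mul, eval_C, eval_pow,
        eval_X] at h1
      have h2 : (e : C) * t0 ^ (e - 1) ≠ 0 :=
        mul_ne_zero (Nat.cast_ne_zero.mpr he) (pow_ne_zero _ ht00)
      apply h2
      rw [h1]
      ring
  have hirr2 := (hprim.irreducible_iff_irreducible_map_fraction_map (K := RatFunc C)).mp hirr
  have hX0 : (RatFunc.X : RatFunc C) ≠ 0 := RatFunc.X_ne_zero
  have hmap : f.map (algebraMap C[X] (RatFunc C)) = Polynomial.C (RatFunc.X ^ e) *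
      (X ^ q - Polynomial.C (1 + RatFunc.C b * (RatFunc.X)⁻¹ ^ e)) := by
    have hAm : algebraMap C[X] (RatFunc C) A = RatFunc.X ^ e := by
      rw [hA, map_pow, RatFunc.algebraMap_X]
    have hBm : algebraMap C[X] (RatFunc C) B =
        RatFunc.X ^ e * (1 + RatFunc.C b * (RatFunc.X)⁻¹ ^ e) := by
      rw [hB, map_add, map_pow, RatFunc.algebraMap_X, RatFunc.algebraMap_C, mul_add, mul_one,
        mul_left_comm, ← mul_pow, mul_inv_cancel₀ hX0, one_pow, mul_one]
    rw [hf, Polynomial.map_sub, Polynomial.map_mul, Polynomial.map_pow, map_X, map_C, map_C, hAm,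
      hBm, mul_sub, ← C_mul]
  rw [hmap] at hirr2
  exact (irreducible_isUnit_mul (isUnit_C.mpr (isUnit_iff_ne_zero.mpr (pow_ne_zero e hX0)))).mp hirr2

end P025H507
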