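import Vale.Agent.P025.R2.H720.Stab

/-!
# P025 A-M2 (helper109), file 1: the action on the residue field at a fixed point
-/

open scoped TensorProduct

namespace P025H109

open P025H544 P025H720

section Quot

variable {G R : Type*} [Group G] [CommRing R] [MulSemiringAction G R]

lemma le_comap_of_fixed (P : PrimeSpectrum R) (hP : ∀ g : G, g • P = P) (g : G) :
    P.asIdeal ≤ P.asIdeal.comap (MulSemiringAction.toRingHom G R g) := by
  intro x hx
  show g • x ∈ P.asIdeal
  have h : g • x ∈ (g • P).asIdeal ↔ x ∈ P.asIdeal := smul_mem_smul_pt g P x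
  rw [hP g] at h
  exact h.mpr hx

/-- the action of one element on the residue ring at a fixed point -/
def resHom (P : PrimeSpectrum R) (hP : ∀ g : G, g • P = P) (g : G) :
    R ⧸ P.asIdeal →+* R ⧸ P.asIdeal :=
  Ideal.quotientMap P.asIdeal (MulSemiringAction.toRingHom G R g) (le_comap_of_fixed P hP g)

lemma resHom_mk (P : PrimeSpectrum R) (hP : ∀ g : G, g • P = P) (g : G) (x : R) :
    resHom P hP g (Ideal.Quotient.mk _ x) = Ideal.Quotient.mk _ (g • x) := rfl

lemma resHom_comp (P : PrimeSpectrum R) (hP : ∀ g : G, g • P = P) (g h : G) (x) :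
    resHom P hP g (resHom P hP h x) = resHom P hP (g * h) x := by
  obtain ⟨x, rfl⟩ := Ideal.Quotient.mk_surjective x
  rw [resHom_mk, resHom_mk, resHom_mk, mul_smul]

lemma resHom_one (P : PrimeSpectrum R) (hP : ∀ g : G, g • P = P) (x) :
    resHom P hP 1 x = x := by
  obtain ⟨x, rfl⟩ := Ideal.Quotient.mk_surjective x
  rw [resHom_mk, one_smul]

/-- the action of one element as an automorphism -/
def resEquiv (P : PrimeSpectrum R) (hP : ∀ g : G, g • P = P) (g : G) :
    R ⧸ P.asIdeal ≃+* R ⧸ P.asIdeal where
  toFun := resHom P hP g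
  invFun := resHom P hP g⁻¹
  left_inv x := by rw [resHom_comp, inv_mul_cancel, resHom_one]
  right_inv x := by rw [resHom_comp, mul_inv_cancel, resHom_one]
  map_mul' := map_mul _
  map_add' := map_add _

/-- the action on the residue ring at a fixed point -/
def resAct (P : PrimeSpectrum R) (hP : ∀ g : G, g • P = P) :
    G →* (R ⧸ P.asIdeal ≃+* R ⧸ P.asIdeal) where
  toFun := resEquiv P hP
  map_one' := by
    apply RingEquiv.ext
    intro x
    exact resHom_one P hP x
  map_mul' g h := by
    apply RingEquiv.ext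
    intro x
    exact (resHom_comp P hP g h x).symm

lemma resAct_mk (P : PrimeSpectrum R) (hP : ∀ g : G, g • P = P) (g : G) (x : R) :
    resAct P hP g (Ideal.Quotient.mk _ x) = Ideal.Quotient.mk _ (g • x) := rfl

end Quot

section Max

variable {F A L : Type*} [Field F] [Field A] [Field L] [Algebra F A] [Algebra F L]

theorem isMaximal_res [Algebra.IsAlgebraic F L] (v : Pt F A L) : v.asIdeal.IsMaximal := by
  have : Algebra.IsIntegral A (A ⊗[F] L) := inferInstance
  apply Ideal.isMaximal_of_isIntegral_of_isMaximal_comap (R := A)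
  have h : (v.asIdeal.comap (algebraMap A (A ⊗[F] L))) = ⊥ := by
    rcases Ideal.eq_bot_or_top (v.asIdeal.comap (algebraMap A (A ⊗[F] L))) with h | h
    · exact h
    · exfalso
      rw [Ideal.comap_eq_top_iff] at h
      exact v.isPrime.ne_top h
  rw [h]
  exact Ideal.bot_isMaximal

/-- the residue field at a point -/
@[reducible] noncomputable def fieldRes [Algebra.IsAlgebraic F L] (v : Pt F A L) :
    Field (Res F A L v) :=
  letI := isMaximal_res v
  Ideal.Quotient.field v.asIdeal

/-- every vertex has an edge -/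
theorem exists_edge [Algebra.IsAlgebraic F L] {B : Type*} [Field B] [Algebra F B] [Algebra A B]
    [IsScalarTower F A B] (v : Pt F A L) : ∃ w : Pt F B L, edge F A B L w = v := by
  classical
  obtain ⟨π, hπ⟩ := LinearMap.exists_leftInverse_of_injective (Algebra.linearMap A B)
    (LinearMap.ker_eq_bot.mpr (algebraMap A B).injective)
  have hπ1 : ∀ (a : A) (b : B), π (algebraMap A B a * b) = a * π b := by
    intro a b
    rw [← Algebra.smul_def, map_smul, smul_eq_mul]
  let ρ : B ⊗[F] L →ₗ[F] A ⊗[F] L := LinearMap.rTensor L (π.restrictScalars F)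
  have hρt : ∀ (b : B) (l : L), ρ (b ⊗ₜ l) = (π b) ⊗ₜ l := fun b l => rfl
  have hρ1 : ∀ (x : A ⊗[F] L) (z : B ⊗[F] L), ρ (bc F A B L x * z) = x * ρ z := by
    intro x z
    induction x using TensorProduct.induction_on with
    | zero => rw [map_zero, zero_mul, map_zero, zero_mul]
    | add x y hx hy => rw [map_add, add_mul, map_add, hx, hy, add_mul]
    | tmul a l =>
      induction z using TensorProduct.induction_on with
      | zero => rw [mul_zero, map_zero, mul_zero]
      | add x y hx hy => rw [mul_add, map_add, hx, hy, map_add, mul_add]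
      | tmul b m =>
        rw [bc_tmul, Algebra.TensorProduct.tmul_mul_tmul, hρt, hρt,
          Algebra.TensorProduct.tmul_mul_tmul, hπ1]
  have hin : ∀ z ∈ v.asIdeal.map (bc F A B L).toRingHom, ∀ b : B ⊗[F] L, ρ (b * z) ∈ v.asIdeal := by
    intro z hz
    refine Submodule.span_induction ?_ ?_ ?_ ?_ hz
    · rintro _ ⟨x, hx, rfl⟩ b
      have h1 : ρ (b * (bc F A B L).toRingHom x) = x * ρ b := by
        rw [mul_comm]; exact hρ1 x b
      rw [h1]
      exact v.asIdeal.mul_mem_right _ hx
    · intro b
      rw [mul_zero, map_zero]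
      exact v.asIdeal.zero_mem
    · intro x y _ _ hx hy b
      rw [mul_add, map_add]
      exact v.asIdeal.add_mem (hx b) (hy b)
    · intro a x _ hx b
      rw [smul_eq_mul, ← mul_assoc]
      exact hx _
  have hne : v.asIdeal.map (bc F A B L).toRingHom ≠ ⊤ := by
    intro h
    have h1 := hin 1 (by rw [h]; trivial) 1
    have h2 : ρ (1 * 1) = 1 := by
      have h3 := hπ1 1 1
      rw [mul_one, map_one] at h3
      have h4 : π 1 = 1 := by
        have := LinearMap.congr_fun hπ 1
        simpa using this
      rw [mul_one]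
      show π 1 ⊗ₜ (1 : L) = 1
      rw [h4]
      rfl
    rw [h2] at h1
    exact v.2.ne_top ((Ideal.eq_top_iff_one _).mpr h1)
  obtain ⟨m, hm, hle⟩ := Ideal.exists_le_maximal _ hne
  refine ⟨⟨m, hm.isPrime⟩, ?_⟩
  apply PrimeSpectrum.ext
  have hv := isMaximal_res v
  refine (hv.eq_of_le ?_ ?_).symm
  · exact (edge F A B L ⟨m, hm.isPrime⟩).2.ne_top
  · intro x hx
    exact hle (Ideal.mem_map_of_mem (bc F A B L).toRingHom hx)

end Max

end P025H109
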