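import Vale.Agent.P025.R2.H109.Unit
import Vale.Agent.P025.R2.H359.Div1

/-!
# P025 A-M2 (helper109), file 4: units at a `V`-vertex are powers, reduction to orders
-/

open scoped TensorProduct Topology

universe u

namespace P025H109

open P025H544 P025H720 P025H373 P025H359

section Flat

variable {R A : Type*} [CommRing R] [CommRing A]

/-- elements which are integral at a point become integral after a modification away from the
point -/
theorem exists_integral_modification (h : AbsFlat R) (j : A →+* R) (P : PrimeSpectrum R) (x : R)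
    (hx : ((Ideal.Quotient.mk P.asIdeal).comp j).IsIntegralElem (Ideal.Quotient.mk P.asIdeal x)) :
    ∃ e : R, IsIdempotentElem e ∧ 1 - e ∈ P.asIdeal ∧ ∀ e' : R, IsIdempotentElem e' →
      e' * e = e' → j.IsIntegralElem (e' * x + (1 - e')) := by
  obtain ⟨Q, hQ, hQx⟩ := hx
  have hr : Q.eval₂ j x ∈ P.asIdeal := by
    rw [← Ideal.Quotient.eq_zero_iff_mem, Polynomial.hom_eval₂]
    exact hQx
  obtain ⟨e, he, heU⟩ := exists_idem_of_clopen (isClopen_mem h (Q.eval₂ j x))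
  refine ⟨e, he, (heU P).mp hr, ?_⟩
  intro e' he' hee'
  refine ⟨(Polynomial.X - 1) * Q, (Polynomial.monic_X_sub_C 1).mul hQ, ?_⟩
  have hred := absFlat_isReduced h
  apply eq_zero_of_forall_mem
  intro P'
  rw [Polynomial.eval₂_mul, Polynomial.eval₂_sub, Polynomial.eval₂_X, Polynomial.eval₂_one]
  rcases idem_or he' P' with h1 | h1
  · apply P'.asIdeal.mul_mem_left
    have h2 : 1 - e ∈ P'.asIdeal := by
      have h3 : e' * (1 - e) = 0 := by linear_combination -hee'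
      have h4 : e' * (1 - e) ∈ P'.asIdeal := by rw [h3]; exact P'.asIdeal.zero_mem
      exact (P'.2.mem_or_mem h4).resolve_left h1.2
    have h5 : Q.eval₂ j x ∈ P'.asIdeal := (heU P').mpr h2
    rw [← Ideal.Quotient.eq_zero_iff_mem, Polynomial.hom_eval₂] at h5 ⊢
    rw [← h5]
    congr 1
    rw [Ideal.Quotient.eq]
    have h6 : e' * x + (1 - e') - x = (1 - e') * (1 - x) := by ring
    rw [h6]
    exact P'.asIdeal.mul_mem_right _ h1.1
  · apply P'.asIdeal.mul_mem_right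
    have h6 : e' * x + (1 - e') - 1 = e' * (x - 1) := by ring
    rw [h6]
    exact P'.asIdeal.mul_mem_right _ h1.1

end Flat

section Abs

variable {F F1 F2 F0 : Type*} [Field F] [Field F1] [Field F2] [Field F0]
  [Algebra F F1] [Algebra F F2] [Algebra F F0] [Algebra F1 F0] [Algebra F2 F0]
  [IsScalarTower F F1 F0] [IsScalarTower F F2 F0] {N : Type*} [Field N] [Algebra F N]
  {A : Type*} [CommRing A]

/-- elements of `N` which are glued from a unit of the ring of integral elements on `V` and from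
`n`-th powers are `n`-th powers -/
def GluePow (F F1 F2 N : Type*) [Field F] [Field F1] [Field F2] [Algebra F F1] [Algebra F F2]
    [Field N] [Algebra F N] {A : Type*} [CommRing A] (j : A →+* F1 ⊗[F] N) (n : ℕ) : Prop :=
  ∀ (z : N) (a s : (F1 ⊗[F] N)ˣ) (t : (F2 ⊗[F] N)ˣ), z ≠ 0 →
    j.IsIntegralElem (a : F1 ⊗[F] N) → j.IsIntegralElem ((a⁻¹ : (F1 ⊗[F] N)ˣ) : F1 ⊗[F] N) →
    (1 : F1) ⊗ₜ[F] z = (a : F1 ⊗[F] N) * (s : F1 ⊗[F] N) ^ n →
    (1 : F2) ⊗ₜ[F] z = (t : F2 ⊗[F] N) ^ n → ∃ y : N, y ^ n = z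

/-- units of the ring of integral elements at a vertex are `n`-th powers -/
theorem unit_pow_of_glue (hP : Patch F F1 F2 F0) [Algebra.IsAlgebraic F N]
    [Algebra.IsSeparable F N] {n : ℕ} (hn : 0 < n) (j : A →+* F1 ⊗[F] N)
    (hE : ∀ (w : Pt F F0 N) (x : Res F F0 N w), ∃ y, y ^ n = x)
    (hG : GluePow F F1 F2 N j n) (v : Pt F F1 N) (x y : Res F F1 N v)
    (hx : ((Ideal.Quotient.mk v.asIdeal).comp j).IsIntegralElem x)
    (hy : ((Ideal.Quotient.mk v.asIdeal).comp j).IsIntegralElem y) (hxy : x * y = 1) :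
    ∃ z : Res F F1 N v, z ^ n = x := by
  have hf1 : AbsFlat (F1 ⊗[F] N) := absFlat_pt F1
  obtain ⟨x, rfl⟩ := Ideal.Quotient.mk_surjective x
  have hxv : x ∉ v.asIdeal := by
    intro h
    rw [Ideal.Quotient.eq_zero_iff_mem.mpr h, zero_mul] at hxy
    have h1 : (Ideal.Quotient.mk v.asIdeal) 1 = 0 := by rw [map_one]; exact hxy.symm
    exact v.2.ne_top ((Ideal.eq_top_iff_one _).mpr (Ideal.Quotient.eq_zero_iff_mem.mp h1))
  obtain ⟨a, ha⟩ := exists_unit hf1 x v hxv
  have hxa : Ideal.Quotient.mk v.asIdeal x = Ideal.Quotient.mk v.asIdeal (a : F1 ⊗[F] N) :=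
    Ideal.Quotient.eq.mpr ha
  have hya : y = Ideal.Quotient.mk v.asIdeal ((a⁻¹ : (F1 ⊗[F] N)ˣ) : F1 ⊗[F] N) := by
    have h1 : Ideal.Quotient.mk v.asIdeal ((a⁻¹ : (F1 ⊗[F] N)ˣ) : F1 ⊗[F] N) *
        Ideal.Quotient.mk v.asIdeal (a : F1 ⊗[F] N) = 1 := by
      rw [← map_mul, Units.inv_mul, map_one]
    rw [hxa] at hxy
    calc y = (Ideal.Quotient.mk v.asIdeal ((a⁻¹ : (F1 ⊗[F] N)ˣ) : F1 ⊗[F] N) *
        Ideal.Quotient.mk v.asIdeal (a : F1 ⊗[F] N)) * y := by rw [h1, one_mul]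
      _ = Ideal.Quotient.mk v.asIdeal ((a⁻¹ : (F1 ⊗[F] N)ˣ) : F1 ⊗[F] N) *
        (Ideal.Quotient.mk v.asIdeal (a : F1 ⊗[F] N) * y) := by ring
      _ = _ := by rw [hxy, mul_one]
  rw [hxa] at hx ⊢
  rw [hya] at hy
  obtain ⟨e1, he1, hv1, hi1⟩ := exists_integral_modification hf1 j v _ hx
  obtain ⟨e2, he2, hv2, hi2⟩ := exists_integral_modification hf1 j v _ hy
  set e := e1 * e2 with he
  have h11 := he1.eq
  have h22 := he2.eq
  have hee : IsIdempotentElem e := by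
    show e * e = e
    rw [he]
    linear_combination (e2 * e2) * h11 + e1 * h22
  have hee1 : e * e1 = e := by rw [he]; linear_combination e2 * h11
  have hee2 : e * e2 = e := by rw [he]; linear_combination e1 * h22
  have hve : 1 - e ∈ v.asIdeal := by
    have : 1 - e = (1 - e1) + e1 * (1 - e2) := by rw [he]; ring
    rw [this]
    exact v.asIdeal.add_mem hv1 (v.asIdeal.mul_mem_left _ hv2)
  have hee' := hee.eq
  let a' : (F1 ⊗[F] N)ˣ := ⟨e * a + (1 - e), e * ↑a⁻¹ + (1 - e), by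
      have h1 : (a : F1 ⊗[F] N) * ↑a⁻¹ = 1 := a.mul_inv
      linear_combination (e * e) * h1 + (2 - (a : F1 ⊗[F] N) - ↑a⁻¹) * hee', by
      have h1 : (a : F1 ⊗[F] N) * ↑a⁻¹ = 1 := a.mul_inv
      linear_combination (e * e) * h1 + (2 - (a : F1 ⊗[F] N) - ↑a⁻¹) * hee'⟩
  obtain ⟨y0, hy0⟩ := root_on_V hP hn a' (fun w => by
      obtain ⟨y, hy⟩ := hE w (Ideal.Quotient.mk w.asIdeal (bc F F1 F0 N a'))
      obtain ⟨y, rfl⟩ := Ideal.Quotient.mk_surjective y
      refine ⟨y, ?_⟩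
      rw [← Ideal.Quotient.eq, map_pow]
      exact hy.symm)
    (fun z s t hz h1 h2 => hG z a' s t hz (hi1 e hee hee1) (hi2 e hee hee2) h1 h2)
  refine ⟨Ideal.Quotient.mk v.asIdeal y0, ?_⟩
  rw [← map_pow, hy0, Ideal.Quotient.eq]
  show e * a + (1 - e) - a ∈ v.asIdeal
  have : e * a + (1 - e) - a = (1 - e) * (1 - a) := by ring
  rw [this]
  exact v.asIdeal.mul_mem_right _ hve

end Abs

section Conc

variable {C : Type u} [NormedField C] [IsUltrametricDist C] {N : Type*} [Field N]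
  [Algebra (RatFunc C) N]

/-- the functions on the closed disc in `F1 ⊗ N` -/
noncomputable def a1Tens (C : Type u) [NormedField C] [IsUltrametricDist C] (N : Type*) [Field N]
    [Algebra (RatFunc C) N] : A1 C →+* F1 C ⊗[RatFunc C] N :=
  (Algebra.TensorProduct.includeLeftRingHom : F1 C →+* F1 C ⊗[RatFunc C] N).comp (a1F1 C)

/-- **(A2.2)** from (A2.1) and gluing. -/
theorem unitPow_of_glue (hP : Patch (RatFunc C) (F1 C) (F2 C) (F0 C))
    [Algebra.IsAlgebraic (RatFunc C) N] [Algebra.IsSeparable (RatFunc C) N] {n : ℕ} (hn : 0 < n)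
    (hE : ∀ (w : Pt (RatFunc C) (F0 C) N) (x : Res (RatFunc C) (F0 C) N w), ∃ y, y ^ n = x)
    (hG : GluePow (RatFunc C) (F1 C) (F2 C) N (a1Tens C N) n) (v : Pt (RatFunc C) (F1 C) N) :
    UnitPow n v :=
  fun x y hx hy hxy => unit_pow_of_glue hP hn (a1Tens C N) hE hG v x y hx hy hxy

end Conc

end P025H109
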