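import Vale.Agent.P025.R2.H109.Cont
import Vale.Agent.P025.R2.H720.GF
import Vale.Agent.P025.R2.H440.M2

/-!
# P025 A-M2 (helper109), file 3: the ring of integral elements at a fixed `V`-vertex
-/

open scoped TensorProduct Topology

universe u

namespace P025H109

open P025H544 P025H720 P025H373

section Ring

variable (C : Type u) [NormedField C] [IsUltrametricDist C] (N : Type*) [Field N]
  [Algebra (RatFunc C) N]

lemma mem_F1_of_mem_A1 (a : A1 C) : (a : F0 C) ∈ F1 C :=
  IntermediateField.subset_adjoin _ _ a.2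

/-- the inclusion of `A1` in `F1` -/
noncomputable def a1F1 : A1 C →+* F1 C where
  toFun a := ⟨a, mem_F1_of_mem_A1 C a⟩
  map_one' := rfl
  map_mul' _ _ := rfl
  map_zero' := rfl
  map_add' _ _ := rfl

/-- the map from `A1` to the residue field at a `V`-vertex -/
noncomputable def a1Res (v : Pt (RatFunc C) (F1 C) N) : A1 C →+* Res (RatFunc C) (F1 C) N v :=
  ((Ideal.Quotient.mk v.asIdeal).comp
    (Algebra.TensorProduct.includeLeftRingHom : F1 C →+* F1 C ⊗[RatFunc C] N)).comp (a1F1 C)

/-- the map from `N` to the residue field at a `V`-vertex -/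
noncomputable def nRes (v : Pt (RatFunc C) (F1 C) N) : N →+* Res (RatFunc C) (F1 C) N v :=
  (Ideal.Quotient.mk v.asIdeal).comp
    (Algebra.TensorProduct.includeRight : N →ₐ[RatFunc C] F1 C ⊗[RatFunc C] N).toRingHom

/-- the map from the constants to the residue field at a `V`-vertex -/
noncomputable def cRes (v : Pt (RatFunc C) (F1 C) N) : C →+* Res (RatFunc C) (F1 C) N v :=
  (nRes C N v).comp ((algebraMap (RatFunc C) N).comp (RatFunc.C : C →+* RatFunc C))

variable {C N}

lemma nRes_algebraMap (v : Pt (RatFunc C) (F1 C) N) (f : RatFunc C) :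
    nRes C N v (algebraMap (RatFunc C) N f) =
      Ideal.Quotient.mk v.asIdeal ((algebraMap (RatFunc C) (F1 C) f) ⊗ₜ[RatFunc C] (1 : N)) := by
  show Ideal.Quotient.mk v.asIdeal ((1 : F1 C) ⊗ₜ[RatFunc C] (algebraMap (RatFunc C) N f)) = _
  rw [Algebra.algebraMap_eq_smul_one, ← TensorProduct.smul_tmul, Algebra.algebraMap_eq_smul_one]

lemma cRes_mem (v : Pt (RatFunc C) (F1 C) N) (c : C) :
    cRes C N v c = a1Res C N v (algebraMap C (A1 C) c) := by
  rw [cRes, RingHom.comp_apply, RingHom.comp_apply, nRes_algebraMap]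
  rfl

/-- the subring of elements integral over the functions on the closed disc -/
noncomputable def intRes (v : Pt (RatFunc C) (F1 C) N) : Subring (Res (RatFunc C) (F1 C) N v) where
  carrier := {x | (a1Res C N v).IsIntegralElem x}
  mul_mem' hx hy := RingHom.IsIntegralElem.mul _ hx hy
  one_mem' := RingHom.isIntegralElem_one _
  add_mem' hx hy := RingHom.IsIntegralElem.add _ hx hy
  zero_mem' := RingHom.isIntegralElem_zero _
  neg_mem' hx := RingHom.IsIntegralElem.neg _ hx

lemma mem_intRes (v : Pt (RatFunc C) (F1 C) N) (x) :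
    x ∈ intRes v ↔ (a1Res C N v).IsIntegralElem x := Iff.rfl

lemma cRes_mem_intRes (v : Pt (RatFunc C) (F1 C) N) (c : C) : cRes C N v c ∈ intRes v := by
  rw [mem_intRes, cRes_mem]
  exact RingHom.isIntegralElem_map _

/-- units of this ring are `n`-th powers (statement (A2.2) of the blueprint, the divisor free
form) -/
def UnitPow (n : ℕ) (v : Pt (RatFunc C) (F1 C) N) : Prop :=
  ∀ x y : Res (RatFunc C) (F1 C) N v, x ∈ intRes v → y ∈ intRes v → x * y = 1 →
    ∃ z : Res (RatFunc C) (F1 C) N v, z ^ n = x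

lemma mem_intRes_of_pow (v : Pt (RatFunc C) (F1 C) N) {n : ℕ} (hn : 0 < n) (x)
    (hx : x ^ n ∈ intRes v) : x ∈ intRes v := by
  rw [mem_intRes] at hx ⊢
  let _ : Algebra (A1 C) (Res (RatFunc C) (F1 C) N v) := (a1Res C N v).toAlgebra
  have h : IsIntegral (A1 C) (x ^ n) := hx
  exact h.of_pow hn

end Ring

section Act

variable {G : Type*} [Group G] [TopologicalSpace G] {C : Type u} [NormedField C]
  [IsUltrametricDist C] [MulSemiringAction G C] [NormAct G C] {N : Type*} [Field N]
  [Algebra (RatFunc C) N] [MulSemiringAction G N] [Equi G (RatFunc C) N]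

/-- the action on `A1` -/
noncomputable def a1Hom (g : G) : A1 C →+* A1 C where
  toFun a := ⟨g • (a : F0 C), smul_mem_A1 g a.2⟩
  map_one' := Subtype.ext (smul_one (N := F0 C) g)
  map_mul' x y := Subtype.ext (smul_mul' g (x : F0 C) (y : F0 C))
  map_zero' := Subtype.ext (smul_zero (A := F0 C) g)
  map_add' x y := Subtype.ext (smul_add g (x : F0 C) (y : F0 C))

lemma resAct_a1 (v : Pt (RatFunc C) (F1 C) N) (hv : ∀ g : G, g • v = v) (g : G) (a : A1 C) :
    resAct v hv g (a1Res C N v a) = a1Res C N v (a1Hom g a) := by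
  show resAct v hv g (Ideal.Quotient.mk _ ((a1F1 C a) ⊗ₜ[RatFunc C] (1 : N))) = _
  rw [resAct_mk, smul_tmul_semi, smul_one]
  rfl

lemma resAct_n (v : Pt (RatFunc C) (F1 C) N) (hv : ∀ g : G, g • v = v) (g : G) (x : N) :
    resAct v hv g (nRes C N v x) = nRes C N v (g • x) := by
  show resAct v hv g (Ideal.Quotient.mk _ ((1 : F1 C) ⊗ₜ[RatFunc C] x)) = _
  rw [resAct_mk, smul_tmul_semi, smul_one]
  rfl

lemma resAct_c (v : Pt (RatFunc C) (F1 C) N) (hv : ∀ g : G, g • v = v) (g : G) (c : C) :
    resAct v hv g (cRes C N v c) = cRes C N v (g • c) := by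
  rw [cRes, RingHom.comp_apply, resAct_n, RingHom.comp_apply, Equi.smul_algebraMap, smul_ratC]
  rfl

lemma resAct_mem (v : Pt (RatFunc C) (F1 C) N) (hv : ∀ g : G, g • v = v) (g : G)
    (x : Res (RatFunc C) (F1 C) N v) (hx : x ∈ intRes v) : resAct v hv g x ∈ intRes v := by
  rw [mem_intRes] at hx ⊢
  obtain ⟨P, hP, hx⟩ := hx
  refine ⟨P.map (a1Hom g), hP.map _, ?_⟩
  rw [Polynomial.eval₂_map]
  have h1 : (a1Res C N v).comp (a1Hom g) = (resAct v hv g).toRingHom.comp (a1Res C N v) := by
    ext a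
    exact (resAct_a1 v hv g a).symm
  have h2 := congrArg (resAct v hv g) hx
  rw [map_zero] at h2
  rw [h1, ← h2]
  exact (Polynomial.hom_eval₂ P (a1Res C N v) (resAct v hv g).toRingHom x).symm

end Act

section Top

/-- small open subgroups of a Galois group -/
lemma exists_open_subgroup {k Kb : Type*} [Field k] [Field Kb] [Algebra k Kb]
    (U : Set Gal(Kb/k)) (hU : U ∈ 𝓝 (1 : Gal(Kb/k))) :
    ∃ V : Subgroup Gal(Kb/k), IsOpen (V : Set Gal(Kb/k)) ∧ (V : Set Gal(Kb/k)) ⊆ U := by
  obtain ⟨E, hE, hEU⟩ := (krullTopology_mem_nhds_one_iff k Kb U).mp hU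
  exact ⟨E.fixingSubgroup, E.fixingSubgroup_isOpen, hEU⟩

/-- `F0` as a nontrivially normed field -/
@[reducible] noncomputable def nnF0 (C : Type u) [NontriviallyNormedField C]
    [IsUltrametricDist C] : NontriviallyNormedField (F0 C) :=
  { (inferInstance : NormedField (F0 C)) with
    non_trivial := by
      obtain ⟨x, hx⟩ := NontriviallyNormedField.non_trivial (α := C)
      exact ⟨algebraMap C (F0 C) x, by rwa [norm_algebraMap_C]⟩ }

end Top

section Unit

variable {p : ℕ} [hp : Fact p.Prime] {k : Type*} {Kb : Type*} [Field k] [Field Kb] [Algebra k Kb]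
  {C : Type u} [NontriviallyNormedField C] [IsUltrametricDist C] [Algebra Kb C] [MulSemiringAction Gal(Kb/k) C] [NormAct Gal(Kb/k) C] [Equi Gal(Kb/k) Kb C]
  {N : Type*} [Field N] [Algebra (RatFunc C) N] [Algebra.IsAlgebraic (RatFunc C) N]
  [MulSemiringAction Gal(Kb/k) N] [Equi Gal(Kb/k) (RatFunc C) N]

/-- the constants in the residue field -/
@[reducible] noncomputable def algKbRes (v : Pt (RatFunc C) (F1 C) N) :
    @Algebra Kb (Res (RatFunc C) (F1 C) N v) _ (fieldRes v).toSemifield.toCommSemiring.toSemiring :=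
  let _ := fieldRes v
  ((cRes C N v).comp (algebraMap Kb C)).toAlgebra

/-- **The action on the residue field at a fixed `V`-vertex.** -/
noncomputable def unitAct [IsGalois k Kb] (hpC : (p : C) ≠ 0)
    (hspan : Submodule.span (RatFunc C)
      {θ : N | IsOpen (MulAction.stabilizer Gal(Kb/k) θ : Set Gal(Kb/k))} = ⊤)
    (v : Pt (RatFunc C) (F1 C) N) (hv : ∀ g : Gal(Kb/k), g • v = v) (hpow : UnitPow p v) :
    @P025H440.UnitAct p k Kb (Res (RatFunc C) (F1 C) N v) _ _ _ (fieldRes v) (algKbRes v) :=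
  let _ := fieldRes v
  let _ : Algebra Kb (Res (RatFunc C) (F1 C) N v) := algKbRes v
  { rho := resAct v hv
    const := by
      intro σ c
      show resAct v hv σ (cRes C N v (algebraMap Kb C c)) = cRes C N v (algebraMap Kb C (σ c))
      rw [resAct_c, Equi.smul_algebraMap]
      rfl
    R := intRes v
    R_const := fun c => cRes_mem_intRes v _
    R_root := fun x hx => mem_intRes_of_pow v hp.out.pos x hx
    R_stab := fun σ x hx => resAct_mem v hv σ x hx
    R_pow := fun x hx0 hx hx' => hpow x x⁻¹ hx hx' (mul_inv_cancel₀ hx0)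
    cont := by
      intro x hx
      have hpB : (p : F0 C) ≠ 0 := by
        rw [← map_natCast (algebraMap C (F0 C))]
        exact (map_ne_zero _).mpr hpC
      let _ : NontriviallyNormedField (F0 C) := nnF0 C
      exact cont_fixed (B := F0 C) hp.out.ne_zero hpB continuous_smul_F0 hspan
        exists_open_subgroup v hv x hx }

end Unit

end P025H109
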