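import Vale.Agent.P025.R2.H109.UPow
import Vale.Agent.P025.R2.H720.Tree
import Vale.Agent.P025.R2.H440.M2Chi

/-!
# P025 A-M2 (helper109), file 5: partial characters from a fixed `V`-vertex of the tree
-/

open scoped TensorProduct Topology

set_option linter.unusedSectionVars false

universe u v w x

namespace P025H109

open P025H544 P025H720 P025H373 P025H855

section Gen

variable {A B K : Type*} [CommRing A] [CommRing B] [CommRing K]

/-- transitivity of integrality, for elements and ring homomorphisms -/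
lemma isIntegralElem_trans (f : A →+* K) (φ : B →+* K) (hφ : ∀ b, f.IsIntegralElem (φ b)) (y : K)
    (hy : φ.IsIntegralElem y) : f.IsIntegralElem y := by
  let _ : Algebra A K := f.toAlgebra
  let ψ : B →+* integralClosure A K := φ.codRestrict (integralClosure A K) hφ
  obtain ⟨P, hP, hPy⟩ := hy
  have h1 : IsIntegral (integralClosure A K) y := by
    refine ⟨P.map ψ, hP.map _, ?_⟩
    rw [Polynomial.eval₂_map]
    exact hPy
  exact isIntegral_trans (R := A) y h1

end Gen

section Trans

variable {C : Type u} [NormedField C] [IsUltrametricDist C] {N : Type*} [Field N]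
  [Algebra (RatFunc C) N]

/-- the ring of integral elements is integrally closed -/
lemma mem_intRes_of_integral (v : Pt (RatFunc C) (F1 C) N) {A : Type*} [CommRing A]
    (φ : A →+* Res (RatFunc C) (F1 C) N v) (hφ : ∀ a, φ a ∈ intRes v)
    (y : Res (RatFunc C) (F1 C) N v) (hy : φ.IsIntegralElem y) : y ∈ intRes v :=
  isIntegralElem_trans (a1Res C N v) φ hφ y hy

lemma tt_mem_A1 : tt C ∈ A1 C :=
  (Algebra.adjoin C {tt C}).le_topologicalClosure (Algebra.subset_adjoin rfl)

lemma nRes_X_mem (v : Pt (RatFunc C) (F1 C) N) :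
    nRes C N v (algebraMap (RatFunc C) N RatFunc.X) ∈ intRes v := by
  have h : nRes C N v (algebraMap (RatFunc C) N RatFunc.X) = a1Res C N v ⟨tt C, tt_mem_A1⟩ := by
    rw [nRes_algebraMap]
    rfl
  rw [h, mem_intRes]
  exact RingHom.isIntegralElem_map _

end Trans

section Tree

variable {p : ℕ} [Fact p.Prime] {k : Type x} [Field k] {kb : Type v} [Field kb] [Algebra k kb]
  {C : Type u} [NontriviallyNormedField C] [IsUltrametricDist C] [CompleteSpace C]
  [IsAlgClosed C] [CharZero C] [IsAlgClosed kb] {N : Type w} [Field N] [Algebra kb C]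
  [Algebra kb N] [TrdegOne kb N] {T : N} [Fact (Transcendental kb T)]

/-- the map from `N` to the residue field at a vertex -/
noncomputable def jRes (v : VT C kb N T) :
    N →+* Res (RatFunc C) (F1 C) (NCT C kb N T) v :=
  (nRes C (NCT C kb N T) v).comp (algebraMap N (NCT C kb N T))

lemma jRes_T (v : VT C kb N T) : jRes v T ∈ intRes v := by
  show nRes C (NCT C kb N T) v (algebraMap N (NCT C kb N T) T) ∈ intRes v
  rw [← algebraMap_T_X]
  exact nRes_X_mem v

lemma jRes_const (v : VT C kb N T) (c : kb) :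
    jRes v (algebraMap kb N c) = cRes C (NCT C kb N T) v (algebraMap kb C c) := by
  show nRes C (NCT C kb N T) v (algebraMap N (NCT C kb N T) (algebraMap kb N c)) =
    nRes C (NCT C kb N T) v (algebraMap (RatFunc C) (NCT C kb N T) (RatFunc.C (algebraMap kb C c)))
  rw [algebraMap_T_C, ← IsScalarTower.algebraMap_apply kb N (NCT C kb N T),
    ← IsScalarTower.algebraMap_apply kb C (NCT C kb N T)]

lemma jRes_adjoin (v : VT C kb N T) (a : Algebra.adjoin kb {T}) : jRes v (a : N) ∈ intRes v := by
  obtain ⟨a, ha⟩ := a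
  induction ha using Algebra.adjoin_induction with
  | mem x hx =>
    have hx' : x = T := hx
    show jRes v x ∈ _
    rw [hx']
    exact jRes_T v
  | algebraMap c =>
    show jRes v (algebraMap kb N c) ∈ _
    rw [jRes_const]
    exact cRes_mem_intRes v _
  | add x y hx hy h1 h2 =>
    show jRes v (x + y) ∈ _
    rw [map_add]
    exact (intRes v).add_mem h1 h2
  | mul x y hx hy h1 h2 =>
    show jRes v (x * y) ∈ _
    rw [map_mul]
    exact (intRes v).mul_mem h1 h2

/-- elements integral over `kb[T]` -/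
lemma jRes_mem (v : VT C kb N T) {f : N} (hf : IsIntegral (Algebra.adjoin kb {T}) f) :
    jRes v f ∈ intRes v := by
  obtain ⟨P, hP, hPf⟩ := hf
  refine mem_intRes_of_integral v ((jRes v).comp (algebraMap (Algebra.adjoin kb {T}) N))
    (fun a => jRes_adjoin v a) _ ⟨P, hP, ?_⟩
  rw [← Polynomial.hom_eval₂, hPf, map_zero]

section Act

variable [Algebra ℚ_[p] k] [FiniteDimensional ℚ_[p] k] [IsGalois k kb]
  [MulSemiringAction Gal(kb/k) C] [NormAct Gal(kb/k) C] [MulSemiringAction Gal(kb/k) N]
  [OpenStab Gal(kb/k) N] [Equi Gal(kb/k) kb C] [Equi Gal(kb/k) kb N] [FixedT Gal(kb/k) T]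

/-- **Partial characters from a fixed `V`-vertex of the tree.** -/
theorem partChar_of_fixed [Algebra k N] [IsScalarTower k kb N] (v : VT C kb N T)
    (hv : ∀ g : Gal(kb/k), g • v = v) (hpow : UnitPow p v) {ζ : k} (hζ : IsPrimitiveRoot ζ p)
    (S : Finset N) (hS : ∀ f ∈ S, f ≠ 0 → (∀ g : Gal(kb/k), g • f = f) ∧
      IsIntegral (Algebra.adjoin kb {T}) f ∧ IsIntegral (Algebra.adjoin kb {T}) f⁻¹) :
    ∃ χ : N → P025H641.Cl p k, PartChar p k S χ := by
  have hpC : (p : C) ≠ 0 := Nat.cast_ne_zero.mpr (Fact.out : p.Prime).ne_zero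
  let _ := fieldRes v
  let _ : Algebra kb (Res (RatFunc C) (F1 C) (NCT C kb N T) v) := algKbRes v
  let D := unitAct (p := p) hpC (span_openStab Gal(kb/k) C kb N T) v hv hpow
  refine ⟨_, D.partChar hζ (jRes v) ?_ S ?_⟩
  · intro c
    rw [IsScalarTower.algebraMap_apply k kb N, jRes_const]
    rfl
  · intro f hf hf0
    obtain ⟨h1, h2, h3⟩ := hS f hf hf0
    refine ⟨(map_ne_zero (jRes v)).mpr hf0, jRes_mem v h2, ?_, ?_⟩
    · rw [← map_inv₀]
      exact jRes_mem v h3
    · intro g
      show resAct v hv g (nRes C (NCT C kb N T) v (algebraMap N (NCT C kb N T) f)) = _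
      rw [resAct_n, Equi.smul_algebraMap (G := Gal(kb/k)) (F := N), h1]
      rfl

end Act

end Tree

end P025H109
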